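import Vale.Agent.Lib.P202.Combined

/-!
# Lech's inequality for closed fibres of length at most three
-/

namespace Vale.Agent.Results.P202.D_LengthThree

open IsLocalRing Vale.Agent.P202

/-- Let `(R, 𝔪) → (S, 𝔫)` be a flat local homomorphism of Noetherian local rings whose closed
fibre `S / 𝔪 S` has length at most `3`. Then `e(R) ≤ e(S)`. -/
theorem result {R S : Type*} [CommRing R] [CommRing S] [IsLocalRing R] [IsLocalRing S]
    [IsNoetherianRing R] [IsNoetherianRing S] [Algebra R S] [IsLocalHom (algebraMap R S)]
    [Module.Flat R S]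
    (hlen : Module.length S (S ⧸ (maximalIdeal R).map (algebraMap R S)) ≤ 3)
    (eR eS : ℝ) (hR : IsHSMultiplicity R eR) (hS : IsHSMultiplicity S eS) :
    eR ≤ eS :=
  lech_of_length_le_three hlen eR eS hR hS

end Vale.Agent.Results.P202.D_LengthThree
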